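import Vale.Agent.P088.H198.Defs2

/-!
# P088, local rigidity: the affine change of variables (row SCALE)
-/

open MeasureTheory Set
open scoped ContDiff Matrix

noncomputable section

namespace Vale.Agent.P088.LR.H925

variable {n : ℕ}

/-- `ψ y = t (y - 1/2)`. -/
def ps (t : ℝ) (y : V n) : V n := t • (y - fun _ => (1 / 2 : ℝ))

/-- `φ x = 1/2 + x / t`. -/
def ph (t : ℝ) (x : V n) : V n := t⁻¹ • x + fun _ => (1 / 2 : ℝ)

lemma ps_ph {t : ℝ} (ht : t ≠ 0) (x : V n) : ps t (ph t x) = x := by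
  simp [ps, ph, smul_smul, ht]

lemma ph_ps {t : ℝ} (ht : t ≠ 0) (y : V n) : ph t (ps t y) = y := by
  simp [ps, ph, smul_smul, ht]

lemma contDiff_ps (t : ℝ) : ContDiff ℝ ∞ (ps t : V n → V n) := by
  unfold ps
  exact (contDiff_id.sub contDiff_const).const_smul t

lemma contDiff_ph (t : ℝ) : ContDiff ℝ ∞ (ph t : V n → V n) := by
  unfold ph
  exact (contDiff_id.const_smul _).add contDiff_const

/-- The homeomorphism. -/
def hm (t : ℝ) (ht : t ≠ 0) : V n ≃ₜ V n where
  toFun := ps t
  invFun := ph t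
  left_inv := ph_ps ht
  right_inv := ps_ph ht
  continuous_toFun := (contDiff_ps t).continuous
  continuous_invFun := (contDiff_ph t).continuous

lemma fd_ps (t : ℝ) (y : V n) :
    HasFDerivAt (ps t : V n → V n) (t • ContinuousLinearMap.id ℝ (V n)) y := by
  unfold ps
  exact ((hasFDerivAt_id y).sub_const _).const_smul t

lemma fd_ph (t : ℝ) (y : V n) :
    HasFDerivAt (ph t : V n → V n) (t⁻¹ • ContinuousLinearMap.id ℝ (V n)) y := by
  unfold ph
  exact ((hasFDerivAt_id y).const_smul t⁻¹).add_const _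

variable {F : Type*} [NormedAddCommGroup F] [NormedSpace ℝ F]

lemma pd_ps (i : Fin n) {f : V n → F} (hf : Differentiable ℝ f) (t : ℝ) (y : V n) :
    pd i (fun y => f (ps t y)) y = t • pd i f (ps t y) := by
  have h := (hf (ps t y)).hasFDerivAt.comp y (fd_ps t y)
  unfold pd
  rw [show (fun y => f (ps t y)) = f ∘ ps t from rfl, h.fderiv]
  simp

lemma pd_ph (i : Fin n) {f : V n → F} (hf : Differentiable ℝ f) (t : ℝ) (y : V n) :
    pd i (fun y => f (ph t y)) y = t⁻¹ • pd i f (ph t y) := by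
  have h := (hf (ph t y)).hasFDerivAt.comp y (fd_ph t y)
  unfold pd
  rw [show (fun y => f (ph t y)) = f ∘ ph t from rfl, h.fderiv]
  simp

lemma cl_ps {f : V n → F} (hf : ContDiff ℝ ∞ f) {k : ℕ} {e t : ℝ} (ht : 0 < t)
    (h : Cl k e f) : Cl k (max 1 t ^ k * e) (fun y => f (ps t y)) := by
  intro l hl x
  have h1 : iteratedFDeriv ℝ l (fun y => f (ps t y)) x =
      iteratedFDeriv ℝ l (fun z => f (t • z)) (x - fun _ => (1 / 2 : ℝ)) := by
    have := iteratedFDeriv_comp_sub' (𝕜 := ℝ) (f := fun z => f (t • z)) l (fun _ => (1 / 2 : ℝ))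
    exact congrFun this x
  have h2 : iteratedFDeriv ℝ l (fun z => f (t • z)) (x - fun _ => (1 / 2 : ℝ)) =
      (iteratedFDeriv ℝ l f (ps t x)).compContinuousLinearMap
        fun _ => t • ContinuousLinearMap.id ℝ (V n) := by
    have := ContinuousLinearMap.iteratedFDeriv_comp_right (t • ContinuousLinearMap.id ℝ (V n))
      (f := f) (n := ∞) hf (x - fun _ => (1 / 2 : ℝ)) (i := l) (by exact_mod_cast le_top)
    exact this
  rw [h1, h2]
  refine (ContinuousMultilinearMap.norm_compContinuousLinearMap_le _ _).trans ?_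
  have h3 : ‖t • ContinuousLinearMap.id ℝ (V n)‖ ≤ max 1 t := by
    rw [norm_smul, Real.norm_of_nonneg ht.le]
    calc t * ‖ContinuousLinearMap.id ℝ (V n)‖ ≤ t * 1 := by
          gcongr; exact ContinuousLinearMap.norm_id_le
      _ ≤ _ := by rw [mul_one]; exact le_max_right _ _
  have h0 : 0 ≤ e := (norm_nonneg _).trans (h l hl (ps t x))
  rw [Finset.prod_const, Finset.card_univ, Fintype.card_fin, mul_comm]
  gcongr
  · calc ‖t • ContinuousLinearMap.id ℝ (V n)‖ ^ l ≤ max 1 t ^ l := by gcongr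
      _ ≤ max 1 t ^ k := pow_le_pow_right₀ (le_max_left _ _) hl
  · exact h l hl (ps t x)

/-- The factor in the change of variables. -/
def fac (n : ℕ) (t : ℝ) : ℝ := |(t ^ n)⁻¹|

lemma int_ps (t : ℝ) (Ω : Set (V n)) (f : V n → ℂ) (hΩ : MeasurableSet Ω) :
    ∫ y in ps t ⁻¹' Ω, f (ps t y) = fac n t • ∫ x in Ω, f x := by
  have hΩ' : MeasurableSet (ps t ⁻¹' Ω) := (contDiff_ps t).continuous.measurable hΩ
  rw [← integral_indicator hΩ, ← integral_indicator hΩ']
  have h1 : ∀ y, (ps t ⁻¹' Ω).indicator (fun y => f (ps t y)) y =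
      (fun z => Ω.indicator f (t • z)) (y - fun _ => (1 / 2 : ℝ)) := by
    intro y
    by_cases hy : ps t y ∈ Ω
    · rw [indicator_of_mem (show y ∈ ps t ⁻¹' Ω from hy)]
      exact (indicator_of_mem hy f).symm
    · rw [indicator_of_notMem (show y ∉ ps t ⁻¹' Ω from hy)]
      exact (indicator_of_notMem hy f).symm
  simp_rw [h1]
  rw [integral_sub_right_eq_self (fun z => Ω.indicator f (t • z)), Measure.integral_comp_smul]
  simp [fac]

/-- The rescaled tensor. -/
def rs (t : ℝ) (s : MF n) : MF n := fun y => s (ps t y)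

lemma bl_ps (t : ℝ) (Ω : Set (V n)) (hΩ : MeasurableSet Ω) (s : MF n) (u v : V n → ℂ)
    (hu : Differentiable ℝ u) (hv : Differentiable ℝ v) :
    bl (ps t ⁻¹' Ω) (rs t s) (fun y => u (ps t y)) (fun y => v (ps t y)) =
      ((t ^ 2 * fac n t : ℝ) : ℂ) * bl Ω s u v := by
  unfold bl rs
  simp_rw [pd_ps _ hu, pd_ps _ hv]
  have h := int_ps t Ω (fun x => ∑ i, ∑ j, (s x i j : ℂ) * pd i u x * pd j v x) hΩ
  rw [Complex.ofReal_mul, mul_assoc, ← Complex.real_smul (x := fac n t), ← h,
    ← integral_const_mul]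
  refine integral_congr_ae (Filter.Eventually.of_forall fun y => ?_)
  simp only [Finset.mul_sum, Complex.real_smul, Complex.ofReal_pow]
  refine Finset.sum_congr rfl fun i _ => Finset.sum_congr rfl fun j _ => ?_
  ring

lemma hm_ps {t : ℝ} (ht : 0 < t) (Ω : Set (V n)) (hΩ : MeasurableSet Ω) (s : MF n)
    (f u : V n → ℂ) (h : Hm Ω s (fun x => f (ph t x)) u) :
    Hm (ps t ⁻¹' Ω) (rs t s) f (fun y => u (ps t y)) := by
  obtain ⟨h1, h2, h3⟩ := h
  refine ⟨h1.comp (contDiff_ps t), ?_, ?_⟩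
  · intro y hy
    have hy' : ps t y ∈ frontier Ω := by
      have := (hm (n := n) t ht.ne').preimage_frontier Ω
      have h4 : y ∈ (hm (n := n) t ht.ne') ⁻¹' frontier Ω := by rw [this]; exact hy
      exact h4
    have := h2 _ hy'
    simp only at this ⊢
    rw [this, ph_ps ht.ne']
  · intro φ hφ hz
    have e1 : φ = fun y => (fun x => φ (ph t x)) (ps t y) := by
      funext y
      simp only
      rw [ph_ps ht.ne']
    have hφ' : ContDiff ℝ ∞ (fun x => φ (ph t x)) := hφ.comp (contDiff_ph t)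
    have e2 := bl_ps t Ω hΩ s u (fun x => φ (ph t x)) (h1.differentiable (by simp))
      (hφ'.differentiable (by simp))
    rw [← e1] at e2
    rw [e2, h3 _ hφ', mul_zero]
    intro x hx
    apply hz
    have := (hm (n := n) t ht.ne').preimage_frontier Ω
    have h4 : ph t x ∈ (hm (n := n) t ht.ne') ⁻¹' frontier Ω := by
      show ps t (ph t x) ∈ frontier Ω
      rw [ps_ph ht.ne']; exact hx
    rw [this] at h4
    exact h4

theorem scale : RowSCALE := by
  intro n k ε hε hL R hR
  set t : ℝ := 4 * R with ht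
  have ht0 : 0 < t := by positivity
  have hM : 0 < max 1 t ^ k := by positivity
  refine ⟨ε / max 1 t ^ k, by positivity, ?_⟩
  intro Ω hO hreg hD g hg hp h1 hC hS
  set Ω' : Set (V n) := ps t ⁻¹' Ω with hΩ'
  have hO' : IsOpen Ω' := hO.preimage (contDiff_ps t).continuous
  have hreg' : interior (closure Ω') = Ω' := by
    have e1 := (hm (n := n) t ht0.ne').preimage_closure Ω
    have e2 := (hm (n := n) t ht0.ne').preimage_interior (closure Ω)
    have e3 : (hm (n := n) t ht0.ne') ⁻¹' Ω = Ω' := rfl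
    rw [e1, e3, hreg, e3] at e2
    exact e2.symm
  have hD' : Ω' ⊆ core n := by
    intro y hy j
    have := hD hy j
    simp only [ps, Pi.smul_apply, Pi.sub_apply, smul_eq_mul] at this
    rw [abs_le] at this
    constructor <;> nlinarith [this.1, this.2]
  have hg' : SmM (rs t g) := fun i j => (hg i j).comp (contDiff_ps t)
  have hC' : ∀ i j, Cl k ε (fun x => rs t g x i j - (1 : Matrix (Fin n) (Fin n) ℝ) i j) := by
    intro i j
    have := cl_ps ((hg i j).sub contDiff_const) ht0 (hC i j)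
    rwa [mul_div_cancel₀ _ hM.ne'] at this
  have hS' : SD Ω' (fun _ => 1) (sg (rs t g)) := by
    intro f h hf hh
    obtain ⟨u, v, u', v', a1, a2, a3, a4, a5⟩ := hS _ _ (hf.comp (contDiff_ph t))
      (hh.comp (contDiff_ph t))
    have hΩm := hO.measurableSet
    refine ⟨_, _, _, _, hm_ps ht0 Ω hΩm (fun _ => 1) f u a1,
      hm_ps ht0 Ω hΩm (fun _ => 1) h v a2, hm_ps ht0 Ω hΩm (sg g) f u' a3,
      hm_ps ht0 Ω hΩm (sg g) h v' a4, ?_⟩
    have b1 := bl_ps t Ω hΩm (fun _ => 1) u v (a1.1.differentiable (by simp))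
      (a2.1.differentiable (by simp))
    have b2 := bl_ps t Ω hΩm (sg g) u' v' (a3.1.differentiable (by simp))
      (a4.1.differentiable (by simp))
    rw [a5, ← b2] at b1
    exact b1
  obtain ⟨w, K, hdf, hgw⟩ := hL Ω' hO' hreg' hD' (rs t g) hg' (fun x => hp _) (fun x hx => h1 _ hx)
    hC' hS'
  have ew : ∀ x, x + t • w (ph t x) = ps t (ph t x + w (ph t x)) := by
    intro x
    conv_lhs => rw [← ps_ph ht0.ne' x]
    rw [ph_ps ht0.ne']
    simp only [ps, smul_sub, smul_add]
    abel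
  have ejm : ∀ x, jm (fun x => t • w (ph t x)) x = jm w (ph t x) := by
    intro x
    funext i j
    simp only [jm]
    have hd : Differentiable ℝ (fun y => t • w y) :=
      (hdf.sw.differentiable (by simp)).const_smul t
    have e := pd_ph j hd t x
    have e' : pd j (fun y => t • w y) (ph t x) = t • pd j w (ph t x) := by
      unfold pd
      rw [fderiv_fun_const_smul (hdf.sw.differentiable (by simp) _)]
      rfl
    rw [e, e', smul_smul, inv_mul_cancel₀ ht0.ne', one_smul]
  refine ⟨fun x => t • w (ph t x), fun x => ps t (K (ph t x)), ⟨?_, ?_, ?_, ?_, ?_, ?_⟩, ?_⟩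
  · exact (hdf.sw.comp (contDiff_ph t)).const_smul t
  · exact (contDiff_ps t).comp (hdf.sK.comp (contDiff_ph t))
  · intro x
    show ps t (K (ph t (x + t • w (ph t x)))) = x
    rw [ew, ph_ps ht0.ne', hdf.l, ps_ph ht0.ne']
  · intro y
    show ps t (K (ph t y)) + t • w (ph t (ps t (K (ph t y)))) = y
    rw [ew, ph_ps ht0.ne', hdf.r, ps_ph ht0.ne']
  · intro x hx
    show t • w (ph t x) = 0
    rw [hdf.z, smul_zero]
    intro h
    apply hx
    have : ps t (ph t x) ∈ Ω := h
    rwa [ps_ph ht0.ne'] at this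
  · intro x
    rw [ejm]
    exact hdf.dp _
  · intro x
    rw [ejm]
    have := hgw (ph t x)
    simp only [rs] at this
    rwa [ps_ph ht0.ne'] at this

end Vale.Agent.P088.LR.H925
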