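import Vale.Agent.P088.H442.C.Defs

/-!
# P088, Theorem C, row C_CM: composition of two diffeomorphisms
-/

open Set
open scoped ContDiff Matrix

noncomputable section

namespace Vale.Agent.P088.H925

open Vale.Agent.P088.LR

variable {n : ℕ}

/-- The displacement of `(id + w₂) ∘ (id + w₁)`. -/
def cw (w₁ w₂ : V n → V n) (x : V n) : V n := w₁ x + w₂ (x + w₁ x)

theorem jm_cw {w₁ w₂ : V n → V n} (h₁ : ContDiff ℝ ∞ w₁) (h₂ : ContDiff ℝ ∞ w₂) (x : V n) :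
    jm (cw w₁ w₂) x = jm w₂ (x + w₁ x) * jm w₁ x := by
  have d₁ : DifferentiableAt ℝ w₁ x := (h₁.differentiable (by simp)) x
  have d₂ : DifferentiableAt ℝ w₂ (x + w₁ x) := (h₂.differentiable (by simp)) _
  have dH : DifferentiableAt ℝ (fun y => y + w₁ y) x := differentiableAt_id.add d₁
  have f1 : fderiv ℝ (fun y => y + w₁ y) x = ContinuousLinearMap.id ℝ (V n) + fderiv ℝ w₁ x := by
    have := (hasFDerivAt_id (𝕜 := ℝ) x).add d₁.hasFDerivAt
    exact this.fderiv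
  have f2 : fderiv ℝ (cw w₁ w₂) x = fderiv ℝ w₁ x +
      (fderiv ℝ w₂ (x + w₁ x)).comp (ContinuousLinearMap.id ℝ (V n) + fderiv ℝ w₁ x) := by
    have h3 : HasFDerivAt (fun y => w₂ (y + w₁ y))
        ((fderiv ℝ w₂ (x + w₁ x)).comp (ContinuousLinearMap.id ℝ (V n) + fderiv ℝ w₁ x)) x := by
      have := d₂.hasFDerivAt.comp x dH.hasFDerivAt
      rw [f1] at this
      exact this
    exact (d₁.hasFDerivAt.add h3).fderiv
  have key : ∀ v : V n, fderiv ℝ w₂ (x + w₁ x) v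
      = ∑ k, v k • fderiv ℝ w₂ (x + w₁ x) (Pi.single k 1) := fun v => by
    conv_lhs => rw [← Finset.univ_sum_single v]
    rw [map_sum]
    refine Finset.sum_congr rfl fun k _ => ?_
    rw [← map_smul]
    congr 1
    rw [← Pi.single_smul]
    simp
  ext i j
  simp only [jm, Matrix.mul_apply, pd]
  rw [f2]
  simp only [ContinuousLinearMap.add_apply, ContinuousLinearMap.comp_apply,
    ContinuousLinearMap.id_apply, Pi.add_apply]
  rw [key]
  simp only [Finset.sum_apply, Pi.smul_apply, Pi.add_apply, smul_eq_mul]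
  have e1 : ∀ k, (Pi.single j (1 : ℝ) : V n) k = (1 : Matrix (Fin n) (Fin n) ℝ) k j := fun k => by
    rw [Matrix.one_apply, Pi.single_apply]
  simp only [e1, add_mul, Finset.sum_add_distrib]
  have e2 : ∑ k, (1 : Matrix (Fin n) (Fin n) ℝ) i k *
      ((1 : Matrix (Fin n) (Fin n) ℝ) k j + fderiv ℝ w₁ x (Pi.single j 1) k)
      = (1 : Matrix (Fin n) (Fin n) ℝ) i j + fderiv ℝ w₁ x (Pi.single j 1) i := by
    simp [Matrix.one_apply]
  rw [e2]
  have e3 : ∑ k, fderiv ℝ w₂ (x + w₁ x) (Pi.single k 1) i *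
      ((1 : Matrix (Fin n) (Fin n) ℝ) k j + fderiv ℝ w₁ x (Pi.single j 1) k)
      = ∑ k, (1 : Matrix (Fin n) (Fin n) ℝ) k j * fderiv ℝ w₂ (x + w₁ x) (Pi.single k 1) i
        + ∑ k, fderiv ℝ w₁ x (Pi.single j 1) k * fderiv ℝ w₂ (x + w₁ x) (Pi.single k 1) i := by
    rw [← Finset.sum_add_distrib]
    exact Finset.sum_congr rfl fun k _ => by ring
  rw [e3]
  ring

theorem dif_cw {Ω : Set (V n)} {w₁ K₁ w₂ K₂ : V n → V n} (h₁ : Dif Ω w₁ K₁)
    (h₂ : Dif Ω w₂ K₂) : Dif Ω (cw w₁ w₂) (fun y => K₁ (K₂ y)) where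
  sw := h₁.sw.add (h₂.sw.comp (contDiff_id.add h₁.sw))
  sK := h₁.sK.comp h₂.sK
  l := fun x => by
    have e : x + cw w₁ w₂ x = (x + w₁ x) + w₂ (x + w₁ x) := by
      simp only [cw]
      abel
    rw [e, h₂.l, h₁.l]
  r := fun y => by
    have e : K₁ (K₂ y) + cw w₁ w₂ (K₁ (K₂ y))
        = (K₁ (K₂ y) + w₁ (K₁ (K₂ y))) + w₂ (K₁ (K₂ y) + w₁ (K₁ (K₂ y))) := by
      simp only [cw]
      abel
    rw [e, h₁.r, h₂.r]
  z := fun x hx => by
    simp only [cw]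
    rw [h₁.z x hx, add_zero, h₂.z x hx, add_zero]
  dp := fun x => by
    rw [jm_cw h₁.sw h₂.sw, Matrix.det_mul]
    exact mul_pos (h₂.dp _) (h₁.dp _)

theorem psh_cw {Ω : Set (V n)} (s : MF n) {w₁ K₁ w₂ K₂ : V n → V n} (h₁ : Dif Ω w₁ K₁)
    (h₂ : Dif Ω w₂ K₂) (y : V n) :
    psh s (cw w₁ w₂) (fun y => K₁ (K₂ y)) y = psh (psh s w₁ K₁) w₂ K₂ y := by
  simp only [psh]
  rw [jm_cw h₁.sw h₂.sw, h₁.r, Matrix.det_mul, mul_inv, Matrix.transpose_mul]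
  rw [Matrix.mul_smul, Matrix.smul_mul, smul_smul]
  simp only [Matrix.mul_assoc]

/-- (C_CM) composition. -/
theorem cm : CC.RowCMC := fun {_} _ s w₁ K₁ w₂ K₂ h₁ h₂ =>
  ⟨cw w₁ w₂, fun y => K₁ (K₂ y), dif_cw h₁ h₂, psh_cw s h₁ h₂⟩

end Vale.Agent.P088.H925
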