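import Vale.Agent.P088.H327.CFInt
import Vale.Agent.P088.H599.J.Defs

/-!
# P088, row U_INT: interpolation with any exponent
-/

open MeasureTheory Set
open scoped ContDiff Matrix

noncomputable section

namespace Vale.Agent.P088.H925

open Vale.Agent.P088.LR Vale.Agent.P088.LR.CF Vale.Agent.P088.H884 Vale.Agent.P088.H327
open Vale.Agent.P088.LR.U (RowINTU)

variable {n : ℕ}

theorem intU (A3 : RowA3) : RowINTU := by
  intro n p _
  obtain ⟨C, hC, h3⟩ := A3 n p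
  obtain ⟨χ, hχs, hχ1, hχt, hχc⟩ := exists_chi n
  obtain ⟨B, hB, hχB⟩ := exists_cl (k := p + n + 1) hχs hχc
  refine ⟨(1 + n) ^ p * (C * B), by positivity, fun f hf hf0 a ha ζ => ?_⟩
  have hft : tsupport f ⊆ core n := by
    refine closure_minimal (fun x hx => ?_) (isClosed_core n)
    by_contra h
    exact hx (hf0 x h)
  obtain ⟨hc, hexp, -⟩ := h3 f hf (hft.trans (core_subset_cube n)) 0 (by simp)
  have hcs : Summable fun k => ‖cf 0 f k‖ := by simpa using hc 0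
  have ha0 : 0 ≤ a := le_trans (by positivity [one_le_wt (0 : Ix n)]) (ha 0)
  set m : Ix n := fun j => ⌊ζ j⌋ with hm
  set θ : V n := fun j => Int.fract (ζ j) with hθ
  have hθ1 : ∀ j, |θ j| ≤ 1 := fun j => by
    rw [abs_of_nonneg (Int.fract_nonneg _)]
    exact (Int.fract_lt_one _).le
  obtain ⟨hd, -, hbd⟩ := h3 χ hχs hχt θ hθ1
  have hre : ∀ l : Ix n, ζ - fr 0 (m - l) = fr θ l := fun l => by
    funext j
    have := Int.floor_add_fract (ζ j)
    simp only [fr, hm, hθ, Pi.sub_apply, Pi.zero_apply, add_zero]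
    push_cast
    linarith
  have hsum1 : Summable fun l => wt l ^ p * ‖cf θ χ l‖ := hd p
  have hsum2 : Summable fun l => wr (fr θ l) ^ p * ‖cf θ χ l‖ := by
    refine Summable.of_nonneg_of_le (fun l => ?_) (fun l => ?_)
      (hsum1.mul_left ((1 + (n : ℝ)) ^ p))
    · have := one_le_wr (fr θ l)
      positivity
    · rw [← mul_assoc, ← mul_pow]
      refine mul_le_mul_of_nonneg_right ?_ (norm_nonneg _)
      exact pow_le_pow_left₀ (by linarith [one_le_wr (fr θ l)]) (wr_fr_le hθ1 l) _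
  have hle2 : ∑' l, wr (fr θ l) ^ p * ‖cf θ χ l‖ ≤ (1 + (n : ℝ)) ^ p * (C * B) := by
    calc ∑' l, wr (fr θ l) ^ p * ‖cf θ χ l‖
        ≤ ∑' l, (1 + (n : ℝ)) ^ p * (wt l ^ p * ‖cf θ χ l‖) := by
          refine hsum2.tsum_le_tsum (fun l => ?_) (hsum1.mul_left _)
          rw [← mul_assoc, ← mul_pow]
          refine mul_le_mul_of_nonneg_right ?_ (norm_nonneg _)
          exact pow_le_pow_left₀ (by linarith [one_le_wr (fr θ l)]) (wr_fr_le hθ1 l) _
      _ = (1 + (n : ℝ)) ^ p * nm p (cf θ χ) := by rw [tsum_mul_left]; rfl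
      _ ≤ _ := mul_le_mul_of_nonneg_left (hbd B hχB) (by positivity)
  -- reindexing
  have hinj : ∑' k, wr (ζ - fr 0 k) ^ p * ‖ft χ (ζ - fr 0 k)‖
      = ∑' l, wr (fr θ l) ^ p * ‖cf θ χ l‖ := by
    rw [← (Equiv.subLeft m).tsum_eq]
    refine tsum_congr fun l => ?_
    rw [Equiv.subLeft_apply, hre l]
    rfl
  have hsum3 : Summable fun k => wr (ζ - fr 0 k) ^ p * ‖ft χ (ζ - fr 0 k)‖ := by
    rw [← (Equiv.subLeft m).summable_iff]
    refine hsum2.congr fun l => ?_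
    simp only [Function.comp, Equiv.subLeft_apply, hre l]
    rfl
  have hterm : ∀ k, wr ζ ^ p * ‖cf 0 f k * ft χ (ζ - fr 0 k)‖
      ≤ a * (wr (ζ - fr 0 k) ^ p * ‖ft χ (ζ - fr 0 k)‖) := fun k => by
    have e : wr ζ ≤ wt k * wr (ζ - fr 0 k) := by
      have := wr_add_le (fr 0 k) (ζ - fr 0 k)
      rwa [add_sub_cancel, wr_fr_zero] at this
    have e2 : wr ζ ^ p ≤ wt k ^ p * wr (ζ - fr 0 k) ^ p := by
      rw [← mul_pow]
      exact pow_le_pow_left₀ (by linarith [one_le_wr ζ]) e _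
    have w1 := one_le_wr (ζ - fr 0 k)
    rw [norm_mul]
    calc wr ζ ^ p * (‖cf 0 f k‖ * ‖ft χ (ζ - fr 0 k)‖)
        ≤ (wt k ^ p * wr (ζ - fr 0 k) ^ p) * (‖cf 0 f k‖ * ‖ft χ (ζ - fr 0 k)‖) :=
          mul_le_mul_of_nonneg_right e2 (by positivity)
      _ = (wt k ^ p * ‖cf 0 f k‖) * (wr (ζ - fr 0 k) ^ p * ‖ft χ (ζ - fr 0 k)‖) := by
          ring
      _ ≤ _ := mul_le_mul_of_nonneg_right (ha k) (by positivity)
  have hsum4 : Summable fun k => wr ζ ^ p * ‖cf 0 f k * ft χ (ζ - fr 0 k)‖ := by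
    refine Summable.of_nonneg_of_le (fun k => ?_) hterm (hsum3.mul_left a)
    have := one_le_wr ζ
    positivity
  have hsum5 : Summable fun k => ‖cf 0 f k * ft χ (ζ - fr 0 k)‖ := by
    have h0 : wr ζ ^ p ≠ 0 := by
      have := one_le_wr ζ
      positivity
    exact (summable_mul_left_iff h0).mp hsum4
  rw [ft_interp hf0 hχ1 hχs.continuous hχc hχt hcs hexp ζ]
  have w0 := one_le_wr ζ
  calc wr ζ ^ p * ‖∑' k, cf 0 f k * ft χ (ζ - fr 0 k)‖
      ≤ wr ζ ^ p * ∑' k, ‖cf 0 f k * ft χ (ζ - fr 0 k)‖ :=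
        mul_le_mul_of_nonneg_left (norm_tsum_le_tsum_norm hsum5) (by positivity)
    _ = ∑' k, wr ζ ^ p * ‖cf 0 f k * ft χ (ζ - fr 0 k)‖ := by rw [tsum_mul_left]
    _ ≤ ∑' k, a * (wr (ζ - fr 0 k) ^ p * ‖ft χ (ζ - fr 0 k)‖) :=
        hsum4.tsum_le_tsum hterm (hsum3.mul_left a)
    _ = a * ∑' l, wr (fr θ l) ^ p * ‖cf θ χ l‖ := by rw [tsum_mul_left, hinj]
    _ ≤ a * ((1 + (n : ℝ)) ^ p * (C * B)) := mul_le_mul_of_nonneg_left hle2 ha0
    _ = _ := by ring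

end Vale.Agent.P088.H925
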