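import Vale.Agent.P088.H150.CNf
import Vale.Agent.P088.H833.D.Defs

/-!
# P088, Theorem D, row D_SF: low frequencies of `q - q₀` in the frame `e_{i₀}`
-/

open MeasureTheory Set
open scoped ContDiff Matrix

noncomputable section

namespace Vale.Agent.P088.H925.SFD

open Vale.Agent.P088.LR Vale.Agent.P088.LR.CF Vale.Agent.P088.LR.CC Vale.Agent.P088.LR.CD
open Vale.Agent.P088.LR.H150 (yc rd_yc sol_fun sol_smooth sol_pd EE_mul nr_add cl_zero)

variable {n : ℕ}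

section key

variable {Ω : Set (V n)} {φ q₀ φ₂ : V n → ℝ} {t : MF n} {q : V n → ℝ}

theorem key2 (hI : RowIDD) (b : B2 Ω φ q₀ φ₂ t q) (hoff : ∀ x ∉ Ω, q x = q₀ x) {i₀ : Fin n}
    {z w : Fin n → ℂ} {ξ : V n}
    (hzw : ∀ j, z j + w j = -(2 * Real.pi * Complex.I * (ξ j : ℂ))) {c₀ c : Ix n → ℂ}
    {U W : V n → ℂ} (SU : SolQ z (th0 i₀) (fun _ => 1) q₀ c₀ U) (SW : SolQ w (th0 i₀) t q c W)
    {a β Z D₁ D₂ R₁ R₂ : ℝ} (ha : 0 ≤ a) (hZ : 0 ≤ Z) (hD₁ : 0 ≤ D₁) (hR₁ : 0 ≤ R₁)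
    (hβ : 0 ≤ β) (he : ∀ i j x, ‖ent t i j x‖ ≤ a) (hq : ∀ x, ‖cx q x - cx q₀ x‖ ≤ β)
    (hz : ∀ j, ‖z j‖ ≤ Z) (hw : ∀ j, ‖w j‖ ≤ Z)
    (h₁ : ∀ j x, ‖Es (th0 i₀) (yc i₀ z c₀ j) x‖ ≤ D₁)
    (h₂ : ∀ j x, ‖Es (th0 i₀) (yc i₀ w c j) x‖ ≤ D₂)
    (p₁ : ∀ x, ‖Es (th0 i₀) c₀ x‖ ≤ R₁) (p₂ : ∀ x, ‖Es (th0 i₀) c x‖ ≤ R₂) :
    ‖ft (fun x => cx q x - cx q₀ x) ξ‖ ≤
      (n : ℝ) ^ 2 * (a * ((Z + D₁) * (Z + D₂))) + β * (R₁ + R₂ + R₁ * R₂) := by
  have sub_cube : Ω ⊆ cube n := (b.sub.trans H650.bal_sub).trans H127.core_sub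
  have hvol : volume Ω ≤ 1 := by
    rw [← H127.volume_cube (n := n)]
    exact measure_mono sub_cube
  have ion : ∀ {f : V n → ℂ}, Continuous f → IntegrableOn f Ω := fun hf =>
    (hf.continuousOn.integrableOn_compact H127.isCompact_core).mono_set (b.sub.trans H650.bal_sub)
  set F : V n → ℂ := fun x => (∑ i, ∑ j, (((t x - 1) i j : ℝ) : ℂ) * pd i U x * pd j W x) +
    ((q x - q₀ x : ℝ) : ℂ) * U x * W x with hF
  set G : V n → ℂ := fun x => (cx q x - cx q₀ x) * ex (-ξ) x with hG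
  have sU := sol_smooth SU
  have sW := sol_smooth SW
  have cpU : ∀ i, Continuous (pd i U) := fun i => (H776.pd_contDiff sU i).continuous
  have cpW : ∀ i, Continuous (pd i W) := fun i => (H776.pd_contDiff sW i).continuous
  have ce : ∀ i j, Continuous (ent t i j) := fun i j => (H127.ent_contDiff b.sm i j).continuous
  have c1 : Continuous fun x => ∑ i, ∑ j, (((t x - 1) i j : ℝ) : ℂ) * pd i U x * pd j W x :=
    continuous_finsetSum _ fun i _ => continuous_finsetSum _ fun j _ =>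
      ((ce i j).mul (cpU i)).mul (cpW j)
  have cq : Continuous fun x => ((q x - q₀ x : ℝ) : ℂ) :=
    Complex.continuous_ofReal.comp (b.sq.continuous.sub b.ba.sq.continuous)
  have c2 : Continuous fun x => ((q x - q₀ x : ℝ) : ℂ) * U x * W x :=
    (cq.mul sU.continuous).mul sW.continuous
  have cF : Continuous F := c1.add c2
  have cG : Continuous G := by
    have h : G = fun x => ((q x - q₀ x : ℝ) : ℂ) * ex (-ξ) x := by
      funext x
      simp only [hG, cx]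
      push_cast
      ring
    rw [h]
    exact cq.mul (H127.ex_contDiff _).continuous
  have hF0 : ∫ x in Ω, F x = 0 := by
    have h := hI Ω φ q₀ φ₂ t q b U W sU sW (fun x hx => SU.eq x (sub_cube hx))
      (fun x hx => SW.eq x (sub_cube hx))
    rw [hF, integral_add (ion c1) (ion c2)]
    exact h
  have hG0 : ∫ x in Ω, G x = ft (fun x => cx q x - cx q₀ x) ξ := by
    refine setIntegral_eq_integral_of_forall_compl_eq_zero fun x hx => ?_
    simp only [hG, cx, hoff x hx, sub_self, zero_mul]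
  have hG1 : ∫ x in Ω, G x = ∫ x in Ω, (G x - F x) := by
    rw [integral_sub (ion cG) (ion cF), hF0, sub_zero]
  rw [← hG0, hG1]
  set K : ℝ := (n : ℝ) ^ 2 * (a * ((Z + D₁) * (Z + D₂))) + β * (R₁ + R₂ + R₁ * R₂) with hK
  have hx : ∀ x, ‖G x - F x‖ ≤ K := by
    intro x
    have e1 : F x = ex (-ξ) x * ((∑ i, ∑ j, ent t i j x *
        ((z i + Es (th0 i₀) (yc i₀ z c₀ i) x) * (w j + Es (th0 i₀) (yc i₀ w c j) x))) +
        (cx q x - cx q₀ x) * ((1 + Es (th0 i₀) c₀ x) * (1 + Es (th0 i₀) c x))) := by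
      rw [hF, ← EE_mul hzw x]
      simp only [sol_pd SU, sol_pd SW]
      rw [mul_add, Finset.mul_sum]
      congr 1
      · refine Finset.sum_congr rfl fun i _ => ?_
        rw [Finset.mul_sum]
        refine Finset.sum_congr rfl fun j _ => ?_
        have h3 : (((t x - 1) i j : ℝ) : ℂ) = ent t i j x := rfl
        rw [h3]
        ring
      · rw [congrFun (sol_fun SU) x, congrFun (sol_fun SW) x, cx, cx]
        push_cast
        ring
    have e2 : G x - F x = -(ex (-ξ) x * ((∑ i, ∑ j, ent t i j x *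
        ((z i + Es (th0 i₀) (yc i₀ z c₀ i) x) * (w j + Es (th0 i₀) (yc i₀ w c j) x))) +
        (cx q x - cx q₀ x) * (Es (th0 i₀) c₀ x + Es (th0 i₀) c x +
          Es (th0 i₀) c₀ x * Es (th0 i₀) c x))) := by
      rw [e1]
      simp only [hG]
      ring
    rw [e2, norm_neg, norm_mul, H127.ex_norm, one_mul]
    refine (norm_add_le _ _).trans (add_le_add ?_ ?_)
    · calc ‖∑ i, ∑ j, ent t i j x *
          ((z i + Es (th0 i₀) (yc i₀ z c₀ i) x) * (w j + Es (th0 i₀) (yc i₀ w c j) x))‖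
          ≤ ∑ _i : Fin n, ∑ _j : Fin n, a * ((Z + D₁) * (Z + D₂)) := by
            refine (norm_sum_le _ _).trans (Finset.sum_le_sum fun i _ => ?_)
            refine (norm_sum_le _ _).trans (Finset.sum_le_sum fun j _ => ?_)
            rw [norm_mul, norm_mul]
            refine mul_le_mul (he i j x) ?_ (by positivity) ha
            exact mul_le_mul ((norm_add_le _ _).trans (add_le_add (hz i) (h₁ i x)))
              ((norm_add_le _ _).trans (add_le_add (hw j) (h₂ j x))) (norm_nonneg _)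
              (add_nonneg hZ hD₁)
        _ = _ := by
            simp only [Finset.sum_const, Finset.card_univ, Fintype.card_fin, nsmul_eq_mul]
            ring
    · rw [norm_mul]
      refine mul_le_mul (hq x) ?_ (norm_nonneg _) hβ
      refine (norm_add₃_le ..).trans (add_le_add (add_le_add (p₁ x) (p₂ x)) ?_)
      rw [norm_mul]
      exact mul_le_mul (p₁ x) (p₂ x) (norm_nonneg _) hR₁
  have hK0 : 0 ≤ K := (norm_nonneg _).trans (hx 0)
  refine (norm_setIntegral_le_of_norm_le_const (hvol.trans_lt ENNReal.one_lt_top)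
    fun x _ => hx x).trans ?_
  have h6 : (volume Ω).toReal ≤ 1 :=
    ENNReal.toReal_le_of_le_ofReal zero_le_one (by simpa using hvol)
  have h7 : volume.real Ω = (volume Ω).toReal := rfl
  rw [h7]
  nlinarith

end key

theorem arith {N C₁ X a β T : ℝ} (hN : 0 ≤ N) (hC : 1 ≤ C₁) (hX : C₁ ≤ X) (ha : 0 ≤ a)
    (hβ : 0 ≤ β) (hXa : C₁ * X * a ≤ 1)
    (hT : T ≤ N * (a * ((2 * Real.pi * X + C₁) * (2 * Real.pi * X + (C₁ + C₁ * X ^ 2 * a)))) +
      β * (C₁ / X + (C₁ / X + C₁ * X * a) + C₁ / X * (C₁ / X + C₁ * X * a))) :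
    T ≤ (90 * N + 4 * β * C₁ + C₁) * (1 / X + X ^ 2 * a) := by
  have hX0 : 0 < X := by linarith
  have hX1 : 1 ≤ X := by linarith
  have hpi := Real.pi_pos
  have hpi2 := Real.pi_lt_d2
  have e0 : C₁ * X ^ 2 * a ≤ X := by
    have : C₁ * X ^ 2 * a = X * (C₁ * X * a) := by ring
    rw [this]
    exact mul_le_of_le_one_right hX0.le hXa
  have u1 : 2 * Real.pi * X + C₁ ≤ 8 * X := by nlinarith
  have u2 : 2 * Real.pi * X + (C₁ + C₁ * X ^ 2 * a) ≤ 9 * X := by nlinarith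
  have e1 : (2 * Real.pi * X + C₁) * (2 * Real.pi * X + (C₁ + C₁ * X ^ 2 * a)) ≤ 90 * X ^ 2 := by
    calc _ ≤ 8 * X * (9 * X) := mul_le_mul u1 u2 (by positivity) (by positivity)
      _ ≤ 90 * X ^ 2 := by nlinarith [sq_nonneg X]
  have e2 : N * (a * ((2 * Real.pi * X + C₁) * (2 * Real.pi * X + (C₁ + C₁ * X ^ 2 * a))))
      ≤ N * (a * (90 * X ^ 2)) :=
    mul_le_mul_of_nonneg_left (mul_le_mul_of_nonneg_left e1 ha) hN
  have v1 : C₁ / X ≤ 1 := by rw [div_le_one hX0]; exact hX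
  have v0 : 0 ≤ C₁ / X := by positivity
  have v2 : 0 ≤ C₁ * X * a := by positivity
  have v3 : C₁ / X * (C₁ / X + C₁ * X * a) ≤ C₁ / X + C₁ * X * a :=
    mul_le_of_le_one_left (by positivity) v1
  have v4 : C₁ * X * a ≤ C₁ * (X ^ 2 * a) := by
    have : X * a ≤ X ^ 2 * a := mul_le_mul_of_nonneg_right (by nlinarith) ha
    nlinarith
  have v5 : C₁ / X = C₁ * (1 / X) := by ring
  have e3 : β * (C₁ / X + (C₁ / X + C₁ * X * a) + C₁ / X * (C₁ / X + C₁ * X * a))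
      ≤ β * (C₁ * (4 * (1 / X + X ^ 2 * a))) := by
    refine mul_le_mul_of_nonneg_left ?_ hβ
    have w1 : 0 ≤ C₁ * (1 / X) := by positivity
    have w2 : 0 ≤ C₁ * (X ^ 2 * a) := by positivity
    rw [v5] at v3 ⊢
    nlinarith
  have w3 : 0 ≤ 1 / X := by positivity
  have w4 : 0 ≤ X ^ 2 * a := by positivity
  have w5 : 0 ≤ N * (1 / X) := by positivity
  have w6 : 0 ≤ C₁ * (1 / X + X ^ 2 * a) := by positivity
  calc T ≤ N * (a * (90 * X ^ 2)) + β * (C₁ * (4 * (1 / X + X ^ 2 * a))) := by linarith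
    _ ≤ _ := by nlinarith

/-- Row D_SF. -/
theorem sfd (hC : RowCGC) (hI : RowIDD) (hB : RowBAD) : RowSFD := by
  intro n B
  obtain ⟨C₁, hC₁, h⟩ := hC n 0 B
  set N : ℝ := (n : ℝ) ^ 2 with hN
  have hN0 : 0 ≤ N := by positivity
  refine ⟨90 * N + 4 * (2 * |B|) * C₁ + C₁, ?_, ?_⟩
  · have : 0 ≤ 90 * N + 4 * (2 * |B|) * C₁ := by positivity
    linarith
  intro i₀ ξ p hξ hp0 hp hpξ X hCX h2 Ω φ q₀ φ₂ t q b hq₀ hq a ha hent hXa
  have h14 : 0 ≤ 90 * N + 4 * (2 * |B|) * C₁ := by positivity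
  have hX1 : C₁ ≤ X := by linarith
  have hX : 1 ≤ X := by linarith
  have hX0 : 0 < X := by linarith
  have hXa1 : C₁ * X * a ≤ 1 := by
    refine le_trans ?_ hXa
    refine mul_le_mul_of_nonneg_right (mul_le_mul_of_nonneg_right ?_ hX0.le) ha
    linarith
  have hm : 0 ≤ nr ξ := H650.nr_nonneg ξ
  set m : ℝ := nr ξ with hmd
  have hρ0 : 0 ≤ X ^ 2 - m ^ 2 := by nlinarith
  set ρ : ℝ := √(X ^ 2 - m ^ 2) with hρd
  have hρ : ρ ^ 2 = X ^ 2 - m ^ 2 := Real.sq_sqrt hρ0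
  set ξ₁ : V n := fun j => ξ j + -ρ * p j with hξ₁
  set ξ₂ : V n := fun j => ξ j + ρ * p j with hξ₂
  have n1 : nr ξ₁ = X := nr_add hp hpξ (-ρ) X hX0.le (by rw [neg_sq]; exact hρ)
  have n2 : nr ξ₂ = X := nr_add hp hpξ ρ X hX0.le hρ
  have o1 : ξ₁ i₀ = 0 := by simp only [hξ₁, hξ, hp0]; ring
  have o2 : ξ₂ i₀ = 0 := by simp only [hξ₂, hξ, hp0]; ring
  have bc : ∀ x ∉ core n, x ∉ bal n := fun x hx hb => hx (H650.bal_sub hb)
  have b3 := hB Ω φ q₀ φ₂ t q b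
  have t1 : ∀ x ∉ core n, t x = 1 := fun x hx => b.off x fun hΩ => bc x hx (b.sub hΩ)
  have q1 : ∀ x ∉ core n, q₀ x = 0 := fun x hx => b3.1 x (bc x hx)
  have q2 : ∀ x ∉ core n, q x = 0 := fun x hx => b3.2.1 x (bc x hx)
  have hq₀' : Cl (0 + n + 1) B (cx q₀) := by rw [zero_add]; exact hq₀
  have hq' : Cl (0 + n + 1) B (cx q) := by rw [zero_add]; exact hq
  have hzero : ∀ r : V n → ℝ, Cl (0 + n + 1) a (fun x => cx r x - cx r x) := by
    intro r l _ x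
    have e : (fun x => cx r x - cx r x) = fun _ : V n => (0 : ℂ) := by
      funext y
      exact sub_self _
    rw [e]
    have := congrFun (iteratedFDeriv_fun_zero (𝕜 := ℝ) (E := V n) (F := ℂ) (n := l)) x
    rw [this]
    simpa using ha
  have hS₀ : Sz (0 + n + 1) a t q₀ q₀ := ⟨by rw [zero_add]; exact hent, hzero q₀⟩
  have hS : Sz (0 + n + 1) a t q q := ⟨by rw [zero_add]; exact hent, hzero q⟩
  obtain ⟨c₁, -, U, -, SU, -, hc₁, hy₁, -, -⟩ := h i₀ 1 ξ₁ (Or.inl rfl) o1 (by rw [n1]; exact hX1) t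
    q₀ q₀ b.sm b.ba.sq b.ba.sq t1 q1 q1 hq₀' a ha hS₀ (by rw [n1]; exact hXa1)
  obtain ⟨d, c, U', W, SU', SW, hd, hyd, hcd, hycd⟩ := h i₀ (-1) ξ₂ (Or.inr rfl) o2
    (by rw [n2]; exact hX1) t q q b.sm b.sq b.sq t1 q2 q2 hq' a ha hS
    (by rw [n2]; exact hXa1)
  rw [n1] at hc₁
  rw [n2] at hd hcd hycd
  have he : ∀ i j x, ‖ent t i j x‖ ≤ a := fun i j x => cl_zero (hent i j) x
  have hqq : ∀ x, ‖cx q x - cx q₀ x‖ ≤ 2 * |B| := fun x => by
    have h3 := cl_zero hq x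
    have h4 := cl_zero hq₀ x
    have h5 := norm_sub_le (cx q x) (cx q₀ x)
    have h6 := le_abs_self B
    linarith
  have zz1 : ∀ j, zs 1 i₀ ξ₁ j =
      Real.pi * (X * H650.dl i₀ j + Complex.I * ρ * p j - Complex.I * ξ j) := by
    intro j
    rw [H650.zs_eq, n1]
    simp only [hξ₁]
    push_cast
    ring
  have zz2 : ∀ j, zs (-1) i₀ ξ₂ j =
      -(Real.pi * (X * H650.dl i₀ j + Complex.I * ρ * p j + Complex.I * ξ j)) := by
    intro j
    rw [H650.zs_eq, n2]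
    simp only [hξ₂]
    push_cast
    ring
  have hzw : ∀ j, zs 1 i₀ ξ₁ j + zs (-1) i₀ ξ₂ j = -(2 * Real.pi * Complex.I * (ξ j : ℂ)) := by
    intro j
    rw [zz1, zz2]
    ring
  have hz1 : ∀ j, ‖zs 1 i₀ ξ₁ j‖ ≤ 2 * Real.pi * X := fun j => by
    have := H650.zs_norm (Or.inl rfl) i₀ ξ₁ j
    rwa [n1] at this
  have hz2 : ∀ j, ‖zs (-1) i₀ ξ₂ j‖ ≤ 2 * Real.pi * X := fun j => by
    have := H650.zs_norm (Or.inr rfl) i₀ ξ₂ j
    rwa [n2] at this
  have hK := key2 hI b b3.2.2 hzw SU SW (a := a) (β := 2 * |B|) (Z := 2 * Real.pi * X) (D₁ := C₁)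
    (D₂ := C₁ + C₁ * X ^ 2 * a) (R₁ := C₁ / X) (R₂ := C₁ / X + C₁ * X * a) ha (by positivity)
    (by linarith) (by positivity) (by positivity) he hqq hz1 hz2
    (fun j x => (H127.es_bound (rd_yc i₀ _ SU.rc j) _ x).trans (hy₁ j))
    (fun j x => by
      rw [H650.es_split (rd_yc i₀ (zs (-1) i₀ ξ₂) SW.rc j) (rd_yc i₀ (zs (-1) i₀ ξ₂) SU'.rc j)]
      refine (norm_add_le _ _).trans (add_le_add ?_ ?_)
      · exact (H127.es_bound (rd_yc i₀ _ SU'.rc j) _ x).trans (hyd j)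
      · have hr : (fun k => yc i₀ (zs (-1) i₀ ξ₂) c j k - yc i₀ (zs (-1) i₀ ξ₂) d j k) =
            fun k => lmz i₀ (zs (-1) i₀ ξ₂) k j * (c k - d k) := by
          funext k
          simp only [yc]
          ring
        refine (H127.es_bound (H650.rd_sub (rd_yc i₀ _ SW.rc j) (rd_yc i₀ _ SU'.rc j)) _ x).trans ?_
        rw [hr]
        exact hycd j)
    (fun x => (H127.es_bound SU.rc (th0 i₀) x).trans hc₁)
    (fun x => by
      rw [H650.es_split SW.rc SU'.rc]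
      refine (norm_add_le _ _).trans (add_le_add ?_ ?_)
      · exact (H127.es_bound SU'.rc (th0 i₀) x).trans hd
      · exact (H127.es_bound (H650.rd_sub SW.rc SU'.rc) (th0 i₀) x).trans hcd)
  exact arith hN0 hC₁ hX1 ha (by positivity) hXa1 hK

end Vale.Agent.P088.H925.SFD
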