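import Vale.Agent.P088.H833.JE.Defs
import Vale.Agent.P088.H738.E2.Defs
import Vale.Agent.P088.H607.XSc

/-!
# P088, Theorem JE: row JE_ISOS (isotropic uniqueness on every smooth bounded domain, by scaling)
-/

open MeasureTheory Set
open scoped ContDiff Matrix

noncomputable section

namespace Vale.Agent.P088.LR.H925.Isos

open Vale.Agent.P088.LR Vale.Agent.P088.LR.B Vale.Agent.P088.LR.CF Vale.Agent.P088.LR.H925
  Vale.Agent.P088.H639 Vale.Agent.P088.H607

variable {n : ℕ}

/-- The function `c`, scaled and cut off to `1` outside the ball. -/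
def cut (t : ℝ) (c : V n → ℝ) : V n → ℝ := fun y => 1 + chi442 y * (c (ps t y) - 1)

theorem cut_smp (t : ℝ) {c : V n → ℝ} (hc : SmP c) : SmP (cut t c) := by
  obtain ⟨hc, hc0⟩ := hc
  have hcps : ContDiff ℝ ∞ (fun y => c (ps t y) - 1) :=
    (hc.comp (contDiff_ps t)).sub contDiff_const
  refine ⟨contDiff_const.add (chi_smooth442.mul hcps), fun y => ?_⟩
  have h1 := chi_nonneg442 y
  have h2 := chi_le_one442 y
  have h3 := hc0 (ps t y)
  have h4 : cut t c y = (1 - chi442 y) + chi442 y * c (ps t y) := by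
    show 1 + chi442 y * (c (ps t y) - 1) = _
    ring
  rw [h4]
  rcases h2.lt_or_eq with h5 | h5
  · have := mul_nonneg h1 h3.le
    linarith
  · rw [h5]; linarith

theorem cut_off (t : ℝ) (c : V n → ℝ) : ∀ y ∉ bal n, cut t c y = 1 := by
  intro y hy
  show 1 + chi442 y * (c (ps t y) - 1) = 1
  rw [chi_zero442 hy]; ring

theorem cut_on {t : ℝ} {y : V n} (h : chi442 y = 1) (c : V n → ℝ) : cut t c y = c (ps t y) := by
  show 1 + chi442 y * (c (ps t y) - 1) = _
  rw [h]; ring

/-- (JE_ISOS) -/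
theorem isos (hISO : E2.RowISO) : JE.RowISOS := by
  intro n hn ρ hρ σ ψ hσ hψ hSE x hx
  obtain ⟨t, ht1, ρ', hρ', hoff, hpos, hz, hχρ⟩ := exists_dom_bal hρ
  have ht0 : 0 < t := by linarith
  have hOm : Om ρ' = ps t ⁻¹' Om ρ := by
    ext y
    exact hpos y
  have hO : IsOpen (Om ρ) := isOpen_lt continuous_const hρ.sm.continuous
  have hO' : IsOpen (Om ρ') := isOpen_lt continuous_const hρ'.sm.continuous
  have hSE' : SE (Om ρ') (sc (cut t σ)) (sc (cut t ψ)) := by
    have h1 := SE_ps607 t ht0 (Om ρ) hO _ _ hSE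
    rw [← hOm] at h1
    intro f hf
    have h2 := h1 f hf
    have h3 : En (Om ρ') (sc (cut t σ)) f = En (Om ρ') (rs t (sc σ)) f := by
      refine En_congr607 hO'.measurableSet (fun y hy => ?_) f
      have hy' : 0 < ρ' y := hy
      show cut t σ y • (1 : Matrix (Fin n) (Fin n) ℝ) = σ (ps t y) • 1
      rw [cut_on (hχρ y hy'.le)]
    have h4 : En (Om ρ') (sc (cut t ψ)) f = En (Om ρ') (rs t (sc ψ)) f := by
      refine En_congr607 hO'.measurableSet (fun y hy => ?_) f
      have hy' : 0 < ρ' y := hy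
      show cut t ψ y • (1 : Matrix (Fin n) (Fin n) ℝ) = ψ (ps t y) • 1
      rw [cut_on (hχρ y hy'.le)]
    rw [h3, h2, h4]
  have hx' : 0 ≤ ρ' (ph t x) := by
    rcases hx.lt_or_eq with h | h
    · exact ((hpos _).2 (by rw [ps_ph ht0.ne']; exact h)).le
    · exact ((hz _).2 (by rw [ps_ph ht0.ne']; exact h.symm)).ge
  have h5 := hISO hn ρ' hρ' hoff (cut t σ) (cut t ψ) (cut_smp t hσ) (cut_smp t hψ)
    (cut_off t σ) (cut_off t ψ) hSE' (ph t x) hx'
  rwa [cut_on (hχρ _ hx'), cut_on (hχρ _ hx'), ps_ph ht0.ne'] at h5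

end Vale.Agent.P088.LR.H925.Isos

end
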