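import Vale.Agent.P088.H925.UInt
import Vale.Agent.P088.H53.D
import Vale.Agent.P088.H776.A3
import Vale.Agent.P088.H501.A12
import Vale.Agent.P088.H442.C.Defs

/-!
# P088, Theorem C, row C_IN: interpolation
-/

open MeasureTheory Set
open scoped ContDiff Matrix Topology

noncomputable section

namespace Vale.Agent.P088.H925

open Vale.Agent.P088.LR Vale.Agent.P088.LR.CF Vale.Agent.P088.H884 Vale.Agent.P088.H776

variable {n : ℕ}

theorem tsupp_cube {f : V n → ℂ} (h0 : ∀ x ∉ core n, f x = 0) : tsupport f ⊆ cube n := by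
  refine Subset.trans ?_ (core_subset_cube n)
  refine closure_minimal (fun x hx => ?_) (isClosed_core n)
  by_contra h
  exact hx (h0 x h)

theorem nm_mono' {c : Ix n → ℂ} (hc : RD c) {l m : ℕ} (h : l ≤ m) : nm l c ≤ nm m c := by
  refine (hc l).tsum_le_tsum (fun k => ?_) (hc m)
  exact mul_le_mul_of_nonneg_right (pow_le_pow_right₀ (wt_one k) h) (norm_nonneg _)

/-- Derivatives of `f` supported in the core are bounded by the norms of its coefficients. -/
theorem cl_of_nm {f : V n → ℂ} (hf : ContDiff ℝ ∞ f) (h0 : ∀ x ∉ core n, f x = 0) (m : ℕ) :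
    Cl m ((2 * Real.pi) ^ m * nm m (cf 0 f)) f := by
  have hs := tsupp_cube h0
  obtain ⟨C, hC, h3⟩ := rowA3 n 0
  obtain ⟨hc, hexp, -⟩ := h3 f hf hs 0 (by simp)
  have hnn : 0 ≤ nm m (cf 0 f) := tsum_nonneg fun k => by have := wt_pos k; positivity
  intro l hl x
  by_cases hx : x ∈ cube n
  · have hop : IsOpen (cube n) := by
      have : cube n = Set.pi univ fun _ => Ioo (0 : ℝ) 1 := by
        ext y
        simp [cube]
      rw [this]
      exact isOpen_set_pi finite_univ fun _ _ => isOpen_Ioo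
    have he : f =ᶠ[𝓝 x] Es 0 (cf 0 f) := by
      filter_upwards [hop.mem_nhds hx] with y hy using hexp y hy
    rw [(he.iteratedFDeriv ℝ l).eq_of_nhds]
    refine (G.norm_iter_Es LR.H501.rowA1 l hc x).trans ?_
    have h1 : (1 : ℝ) ≤ 2 * Real.pi := by linarith [Real.pi_gt_three]
    exact mul_le_mul (pow_le_pow_right₀ h1 hl) (nm_mono' hc hl)
      (tsum_nonneg fun k => by have := wt_pos k; positivity) (by positivity)
  · have hx' : x ∈ (core n)ᶜ := fun h => hx (core_subset_cube n h)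
    have he : f =ᶠ[𝓝 x] fun _ => 0 := by
      filter_upwards [(isClosed_core n).isOpen_compl.mem_nhds hx'] with y hy using h0 y hy
    rw [(he.iteratedFDeriv ℝ l).eq_of_nhds]
    have : iteratedFDeriv ℝ l (fun _ : V n => (0 : ℂ)) x = 0 := by
      have := congrFun (iteratedFDeriv_fun_zero (𝕜 := ℝ) (E := V n) (F := ℂ) (n := l)) x
      exact this
    rw [this, norm_zero]
    positivity

theorem inC : CC.RowINC := by
  intro n m
  set S : ℝ := ∑' k : Ix n, (wt k ^ (n + 1))⁻¹ with hS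
  have hS0 : 0 ≤ S := tsum_nonneg fun k => by have := wt_pos k; positivity
  refine ⟨2 * (m + n + 1), (2 * Real.pi) ^ m * (((n : ℝ) + 1) ^ (m + n + 1) * S) + 1, ?_,
    fun f hf h0 a ha ha1 hf0 hfM => ?_⟩
  · have : 0 ≤ (2 * Real.pi) ^ m * (((n : ℝ) + 1) ^ (m + n + 1) * S) := by positivity
    linarith
  have hs := tsupp_cube h0
  have key : ∀ k : Ix n, wt k ^ m * ‖cf 0 f k‖
      ≤ √a * ((n : ℝ) + 1) ^ (m + n + 1) * (wt k ^ (n + 1))⁻¹ := by
    intro k
    have hw := wt_pos k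
    have h1 : ‖cf 0 f k‖ ≤ a := by
      have := ft_bound 0 hf hs hf0 (fr 0 k) none
      simpa [cf] using this
    have h2 : wt k ^ (2 * (m + n + 1)) * ‖cf 0 f k‖ ≤ ((n : ℝ) + 1) ^ (2 * (m + n + 1)) * 1 :=
      cf_decay hf hs hfM (θ := 0) (by simp) k
    have h3 : (wt k ^ (m + n + 1) * ‖cf 0 f k‖) ^ 2 ≤ (√a * ((n : ℝ) + 1) ^ (m + n + 1)) ^ 2 := by
      rw [mul_pow, mul_pow, Real.sq_sqrt ha, ← pow_mul, ← pow_mul]
      calc wt k ^ ((m + n + 1) * 2) * ‖cf 0 f k‖ ^ 2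
          = (wt k ^ (2 * (m + n + 1)) * ‖cf 0 f k‖) * ‖cf 0 f k‖ := by
            rw [mul_comm (m + n + 1) 2]; ring
        _ ≤ (((n : ℝ) + 1) ^ (2 * (m + n + 1)) * 1) * a :=
            mul_le_mul h2 h1 (norm_nonneg _) (by positivity)
        _ = a * ((n : ℝ) + 1) ^ ((m + n + 1) * 2) := by
            rw [mul_comm (m + n + 1) 2]; ring
    have h4 : wt k ^ (m + n + 1) * ‖cf 0 f k‖ ≤ √a * ((n : ℝ) + 1) ^ (m + n + 1) :=
      le_of_sq_le_sq h3 (by positivity)
    have hw' : 0 < wt k ^ (n + 1) := pow_pos hw _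
    rw [← div_eq_mul_inv, le_div_iff₀ hw']
    calc wt k ^ m * ‖cf 0 f k‖ * wt k ^ (n + 1) = wt k ^ (m + n + 1) * ‖cf 0 f k‖ := by
          rw [add_assoc, pow_add]; ring
      _ ≤ _ := h4
  have hnm : nm m (cf 0 f) ≤ √a * ((n : ℝ) + 1) ^ (m + n + 1) * S := by
    rw [hS, ← tsum_mul_left]
    exact (cf_RD hf hs (by simp) m).tsum_le_tsum key ((sum_wt n).mul_left _)
  intro l hl x
  refine (cl_of_nm hf h0 m l hl x).trans ?_
  have hsa := Real.sqrt_nonneg a
  calc (2 * Real.pi) ^ m * nm m (cf 0 f)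
      ≤ (2 * Real.pi) ^ m * (√a * ((n : ℝ) + 1) ^ (m + n + 1) * S) :=
        mul_le_mul_of_nonneg_left hnm (by positivity)
    _ ≤ (2 * Real.pi) ^ m * (√a * ((n : ℝ) + 1) ^ (m + n + 1) * S) + √a := by linarith
    _ = _ := by ring

end Vale.Agent.P088.H925
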