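import Vale.Agent.P088.H198.E.Defs
import Vale.Agent.P088.H607.YBd

/-!
# P088, Theorem E, row E_CZ: the conformal factor at the boundary
-/

open MeasureTheory Set Filter Topology
open scoped ContDiff Matrix

noncomputable section

namespace Vale.Agent.P088.H925.EC

open Vale.Agent.P088.LR Vale.Agent.P088.LR.B Vale.Agent.P088.LR.B.H43 Vale.Agent.P088.H639
open Vale.Agent.P088.LR.CF (sc)
open Vale.Agent.P088.H109 (Om_bounded sc_apply sc_posSemidef sc_low)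

variable {n : ℕ} {ρ : V n → ℝ}

/-- A matrix near `1` as a quadratic form. -/
theorem form_bd {T : Matrix (Fin n) (Fin n) ℝ} {ε : ℝ} (hε : 0 ≤ ε)
    (hT : ∀ i j, |T i j - dl i j| ≤ ε) (b : Fin n → ℝ) :
    |∑ i, ∑ j, T i j * b i * b j - ∑ i, b i ^ 2| ≤ n * ε * ∑ i, b i ^ 2 := by
  have h0 : ∑ i, b i ^ 2 = ∑ i, ∑ j, dl i j * b i * b j := by
    refine Finset.sum_congr rfl fun i _ => ?_
    rw [Finset.sum_eq_single i]
    · rw [dl, Matrix.one_apply_eq]; ring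
    · intro j _ hj
      rw [dl, Matrix.one_apply_ne (Ne.symm hj)]; ring
    · intro h; exact absurd (Finset.mem_univ i) h
  have e : ∑ i, ∑ j, T i j * b i * b j - ∑ i, b i ^ 2 =
      ∑ i, ∑ j, (T i j - dl i j) * b i * b j := by
    rw [h0, ← Finset.sum_sub_distrib]
    refine Finset.sum_congr rfl fun i _ => ?_
    rw [← Finset.sum_sub_distrib]
    refine Finset.sum_congr rfl fun j _ => ?_
    ring
  have h2 : |∑ i, ∑ j, (T i j - dl i j) * b i * b j| ≤ ε * (∑ i, |b i|) ^ 2 := by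
    calc |∑ i, ∑ j, (T i j - dl i j) * b i * b j|
        ≤ ∑ i, |∑ j, (T i j - dl i j) * b i * b j| := Finset.abs_sum_le_sum_abs _ _
      _ ≤ ∑ i, ∑ j, |(T i j - dl i j) * b i * b j| :=
          Finset.sum_le_sum fun i _ => Finset.abs_sum_le_sum_abs _ _
      _ ≤ ∑ i, ∑ j, ε * (|b i| * |b j|) := by
          refine Finset.sum_le_sum fun i _ => Finset.sum_le_sum fun j _ => ?_
          rw [abs_mul, abs_mul, mul_assoc]
          exact mul_le_mul_of_nonneg_right (hT i j) (by positivity)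
      _ = ε * (∑ i, |b i|) ^ 2 := by
          rw [sq, Finset.sum_mul_sum, Finset.mul_sum]
          refine Finset.sum_congr rfl fun i _ => ?_
          rw [Finset.mul_sum]
  have h3 : (∑ i, |b i|) ^ 2 ≤ n * ∑ i, b i ^ 2 := by
    have := sq_sum_le_card_mul_sum_sq (s := (Finset.univ : Finset (Fin n))) (f := fun i => |b i|)
    simpa using this
  rw [e]
  calc _ ≤ ε * (∑ i, |b i|) ^ 2 := h2
    _ ≤ ε * (n * ∑ i, b i ^ 2) := mul_le_mul_of_nonneg_left h3 hε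
    _ = _ := by ring

section tens

variable {s t : MF n} {ψ : V n → ℝ} {B : ℕ → ℝ} {ε : ℝ}

theorem form_s (N : E.Nc 0 B ε s ψ t) (x : V n) (b : Fin n → ℝ) :
    ∑ i, ∑ j, s x i j * b i * b j = ψ x * ∑ i, ∑ j, t x i j * b i * b j := by
  rw [Finset.mul_sum]
  refine Finset.sum_congr rfl fun i _ => ?_
  rw [Finset.mul_sum]
  refine Finset.sum_congr rfl fun j _ => ?_
  rw [N.eq x, Matrix.smul_apply, smul_eq_mul]
  ring

theorem form_up (N : E.Nc 0 B ε s ψ t) (hε : 0 ≤ ε) (x : V n) (b : Fin n → ℝ) :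
    ∑ i, ∑ j, s x i j * b i * b j ≤ (1 + n * ε) * ∑ i, ∑ j, sc ψ x i j * b i * b j := by
  rw [form_s N, sc_low]
  have h1 := (abs_le.1 (form_bd hε (N.nt · · x) b)).2
  have h2 := mul_le_mul_of_nonneg_left h1 (N.pψ.2 x).le
  nlinarith

theorem form_lo (N : E.Nc 0 B ε s ψ t) (hε : 0 ≤ ε) (x : V n) (b : Fin n → ℝ) :
    (1 - n * ε) * ∑ i, ∑ j, sc ψ x i j * b i * b j ≤ ∑ i, ∑ j, s x i j * b i * b j := by
  rw [form_s N, sc_low]
  have h1 := (abs_le.1 (form_bd hε (N.nt · · x) b)).1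
  have h2 := mul_le_mul_of_nonneg_left h1 (N.pψ.2 x).le
  nlinarith

theorem sm_s (N : E.Nc 0 B ε s ψ t) : SmM s := fun i j => by
  have : (fun x => s x i j) = fun x => ψ x * t x i j := by
    funext x
    rw [N.eq x, Matrix.smul_apply, smul_eq_mul]
  rw [this]
  exact N.pψ.1.mul (N.st i j)

theorem sy_s (N : E.Nc 0 B ε s ψ t) (x : V n) : (s x).IsSymm := by
  rw [N.eq x]
  exact (N.sy x).smul _

theorem sm_sc {σ : V n → ℝ} (hσ : ContDiff ℝ ∞ σ) : SmM (sc σ) := fun i j => by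
  simp only [sc_apply]
  exact hσ.mul contDiff_const

theorem psd_s (N : E.Nc 0 B ε s ψ t) (hε : 0 ≤ ε) (hnε : n * ε ≤ 1) (x : V n) :
    (s x).PosSemidef := by
  refine Matrix.PosSemidef.of_dotProduct_mulVec_nonneg ?_ fun b => ?_
  · rw [Matrix.IsHermitian, Matrix.conjTranspose_eq_transpose_of_trivial]
    exact sy_s N x
  · have e : star b ⬝ᵥ s x *ᵥ b = ∑ i, ∑ j, s x i j * b i * b j := by
      simp only [dotProduct, Matrix.mulVec, Finset.mul_sum, star_trivial, Pi.star_apply]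
      refine Finset.sum_congr rfl fun i _ => Finset.sum_congr rfl fun j _ => ?_
      ring
    rw [e]
    refine le_trans ?_ (form_lo N hε x b)
    rw [sc_low]
    have h1 : 0 ≤ ψ x * ∑ i, b i ^ 2 :=
      mul_nonneg (N.pψ.2 x).le (Finset.sum_nonneg fun _ _ => sq_nonneg _)
    have h2 : 0 ≤ 1 - n * ε := by linarith
    positivity

theorem rb_up (hρ : Dom ρ) (N : E.Nc 0 B ε s ψ t) (hε : 0 ≤ ε) {u : V n → ℝ}
    (hu : ContDiff ℝ ∞ u) : rb (Om ρ) s u u ≤ (1 + n * ε) * rb (Om ρ) (sc ψ) u u := by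
  unfold rb
  rw [← integral_const_mul]
  have hb := Om_bounded hρ
  refine setIntegral_mono
    (rb_integrable hb (fun i j => (sm_s N i j).continuous) hu hu)
    ((rb_integrable hb (fun i j => (sm_sc N.pψ.1 i j).continuous) hu hu).const_mul _) fun x => ?_
  exact form_up N hε x fun i => pd i u x

theorem rb_lo (hρ : Dom ρ) (N : E.Nc 0 B ε s ψ t) (hε : 0 ≤ ε) {u : V n → ℝ}
    (hu : ContDiff ℝ ∞ u) : (1 - n * ε) * rb (Om ρ) (sc ψ) u u ≤ rb (Om ρ) s u u := by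
  unfold rb
  rw [← integral_const_mul]
  have hb := Om_bounded hρ
  refine setIntegral_mono
    ((rb_integrable hb (fun i j => (sm_sc N.pψ.1 i j).continuous) hu hu).const_mul _)
    (rb_integrable hb (fun i j => (sm_s N i j).continuous) hu hu) fun x => ?_
  exact form_lo N hε x fun i => pd i u x

end tens

/-- `∫ F |∇U|²`. -/
def eF (ρ F : V n → ℝ) (U : V n → ℂ) : ℝ := ∫ x in Om ρ, ∑ a, F x * ‖pd a U x‖ ^ 2

theorem eF_eq (hρ : Dom ρ) {F : V n → ℝ} (hF : ContDiff ℝ ∞ F) {U : V n → ℂ}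
    (hU : ContDiff ℝ ∞ U) :
    eF ρ F U = rb (Om ρ) (sc F) (rp U) (rp U) + rb (Om ρ) (sc F) (mp U) (mp U) := by
  have hb := Om_bounded hρ
  unfold eF rb
  rw [← integral_add
    (rb_integrable hb (fun i j => (sm_sc hF i j).continuous) (rp_contDiff hU) (rp_contDiff hU))
    (rb_integrable hb (fun i j => (sm_sc hF i j).continuous) (mp_contDiff hU) (mp_contDiff hU))]
  refine integral_congr_ae (Eventually.of_forall fun x => ?_)
  simp only
  rw [sc_low F x fun i => pd i (rp U) x, sc_low F x fun i => pd i (mp U) x, ← mul_add,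
    ← Finset.sum_add_distrib, Finset.mul_sum]
  refine Finset.sum_congr rfl fun a _ => ?_
  rw [pd_rp (hU.differentiable (by simp) x), pd_mp (hU.differentiable (by simp) x),
    ← Complex.normSq_eq_norm_sq, Complex.normSq_apply]
  ring

theorem sl_parts (hρ : Dom ρ) {F : V n → ℝ} (hF : SmP F) {U : V n → ℂ} (hU : ContDiff ℝ ∞ U)
    (hU0 : ∀ x ∈ Om ρ, dv (sc F) U x = 0) :
    Sl (Om ρ) (sc F) (rp U) ∧ Sl (Om ρ) (sc F) (mp U) := by
  have hO : IsOpen (Om ρ) := isOpen_lt continuous_const hρ.sm.continuous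
  have hs := sm_sc hF.1
  have hss : ∀ x, (sc F x).IsSymm := fun x => by
    have h := (sc_posSemidef (fun x => (hF.2 x).le) x).1
    rw [Matrix.IsHermitian, Matrix.conjTranspose_eq_transpose_of_trivial] at h
    exact h
  exact ⟨Sl_of_dv Vale.Agent.P088.LR.weak hO (Om_bounded hρ) hs hss (rp_contDiff hU)
      fun x hx => by rw [(dv_parts hs hU x).1, hU0 x hx]; simp,
    Sl_of_dv Vale.Agent.P088.LR.weak hO (Om_bounded hρ) hs hss (mp_contDiff hU)
      fun x hx => by rw [(dv_parts hs hU x).2, hU0 x hx]; simp⟩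

theorem en_sol (hρ : Dom ρ) {F : V n → ℝ} (hF : SmP F) {u : V n → ℝ}
    (hu : Sl (Om ρ) (sc F) u) : En (Om ρ) (sc F) u = rb (Om ρ) (sc F) u u := by
  have hp := sc_posSemidef (n := n) (σ := F) fun x => (hF.2 x).le
  refine En_sol (Om_bounded hρ) (fun i j => (sm_sc hF.1 i j).continuous) (fun x => ?_) hp hu
  have h := (hp x).1
  rw [Matrix.IsHermitian, Matrix.conjTranspose_eq_transpose_of_trivial] at h
  exact h

/-- A solution `u` for `σ`: `∫ σ |∇u|² ≤ (1 + n ε) ∫ ψ |∇u|²`. -/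
theorem real_up (hρ : Dom ρ) {σ : V n → ℝ} (hσ : SmP σ) {s t : MF n} {ψ : V n → ℝ} {B : ℕ → ℝ}
    {ε : ℝ} (N : E.Nc 0 B ε s ψ t) (hε : 0 ≤ ε) (hnε : n * ε ≤ 1) (hSE : SE (Om ρ) (sc σ) s)
    {u : V n → ℝ} (hu : Sl (Om ρ) (sc σ) u) :
    rb (Om ρ) (sc σ) u u ≤ (1 + n * ε) * rb (Om ρ) (sc ψ) u u := by
  have h1 := en_sol hρ hσ hu
  have h2 := hSE u hu.1
  have h3 : En (Om ρ) s u ≤ rb (Om ρ) s u u :=
    csInf_le (En_bdd (psd_s N hε hnε) u) ⟨u, hu.1, fun _ _ => rfl, rfl⟩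
  have h4 := rb_up hρ N hε hu.1
  linarith

/-- A solution `u` for `ψ`: `(1 - n ε) ∫ ψ |∇u|² ≤ ∫ σ |∇u|²`. -/
theorem real_lo (hρ : Dom ρ) {σ : V n → ℝ} (hσ : SmP σ) {s t : MF n} {ψ : V n → ℝ} {B : ℕ → ℝ}
    {ε : ℝ} (N : E.Nc 0 B ε s ψ t) (hε : 0 ≤ ε) (hnε : n * ε ≤ 1) (hSE : SE (Om ρ) (sc σ) s)
    {u : V n → ℝ} (hu : Sl (Om ρ) (sc ψ) u) :
    (1 - n * ε) * rb (Om ρ) (sc ψ) u u ≤ rb (Om ρ) (sc σ) u u := by
  have h1 := en_sol hρ N.pψ hu
  have h2 := hSE u hu.1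
  have h3 : En (Om ρ) (sc σ) u ≤ rb (Om ρ) (sc σ) u u :=
    csInf_le (En_bdd (sc_posSemidef fun x => (hσ.2 x).le) u) ⟨u, hu.1, fun _ _ => rfl, rfl⟩
  have h4 : (1 - n * ε) * En (Om ρ) (sc ψ) u ≤ En (Om ρ) s u := by
    refine le_csInf ⟨_, u, hu.1, fun _ _ => rfl, rfl⟩ ?_
    rintro e ⟨v, hv, hvu, rfl⟩
    have h5 : En (Om ρ) (sc ψ) u ≤ rb (Om ρ) (sc ψ) v v :=
      csInf_le (En_bdd (sc_posSemidef fun x => (N.pψ.2 x).le) u) ⟨v, hv, hvu, rfl⟩
    have h6 := rb_lo hρ N hε hv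
    have h7 : 0 ≤ 1 - n * ε := by linarith
    exact (mul_le_mul_of_nonneg_left h5 h7).trans h6
  rw [h1] at h4
  linarith

/-- Concentration. -/
theorem conc (hCON : BX.RowCON) (hρ : Dom ρ) {τ₀ : V n → ℝ} (hτ₀ : SmP τ₀) {p : V n}
    (hp : ρ p = 0) {ν τ : V n} (h1 : ∑ i, ν i ^ 2 = 1) (h2 : ∑ i, τ i ^ 2 = 1)
    (h3 : ∑ i, ν i * τ i = 0) (hν : ∃ c > 0, ∀ i, pd i ρ p = c * ν i) :
    ∃ (U : ℕ → V n → ℂ) (Z : ℕ → ℝ), (∀ N, ContDiff ℝ ∞ (U N)) ∧
      (∀ N, ∀ x ∈ Om ρ, dv (sc τ₀) (U N) x = 0) ∧ (∀ N, 0 < Z N) ∧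
      ∀ F : V n → ℝ, Continuous F → Tendsto (fun N => (Z N)⁻¹ * eF ρ F (U N)) atTop
        (𝓝 (2 * F p)) := by
  obtain ⟨U, hU, hUh, hUZ⟩ := hCON ρ hρ τ₀ hτ₀ p hp ν τ h1 h2 h3 hν
  obtain ⟨Z, hZ, hlim⟩ := hUZ 0
  refine ⟨U, Z, hU, hUh, hZ, fun F hF => ?_⟩
  set ζ : Fin n → ℂ := fun i => (ν i : ℂ) + Complex.I * τ i with hζ
  have hζc : ∀ j, (starRingEnd ℂ) (ζ j) = (ν j : ℂ) - Complex.I * τ j := fun j => by
    simp only [hζ, map_add, map_mul, Complex.conj_ofReal, Complex.conj_I]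
    ring
  have cU : ∀ N i, Continuous (pd i (U N)) := fun N => pd_cont (hU N)
  have cUc : ∀ N i, Continuous fun x => (starRingEnd ℂ) (pd i (U N) x) := fun N i =>
    Complex.continuous_conj.comp (cU N i)
  have cF : Continuous fun x => ((F x : ℝ) : ℂ) := Complex.continuous_ofReal.comp hF
  have R1 : Tendsto (fun N => (((Z N)⁻¹ * eF ρ F (U N) : ℝ) : ℂ)) atTop
      (𝓝 (((2 * F p : ℝ)) : ℂ)) := by
    have h4 : Tendsto (fun N => ∑ j, ((Z N : ℝ) : ℂ)⁻¹ * ∫ x in Om ρ,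
        ((ρ x ^ 0 : ℝ) : ℂ) * ((F x : ℝ) : ℂ) * pd j (U N) x *
          (starRingEnd ℂ) (pd j (U N) x)) atTop
        (𝓝 (∑ j, ((F p : ℝ) : ℂ) * ζ j * (starRingEnd ℂ) (ζ j))) :=
      tendsto_finsetSum _ fun j _ => hlim (fun x => ((F x : ℝ) : ℂ)) cF.continuousOn j j
    have h5 : ∑ j, ((F p : ℝ) : ℂ) * ζ j * (starRingEnd ℂ) (ζ j) = ((2 * F p : ℝ) : ℂ) := by
      have h6 : ∀ j, ((F p : ℝ) : ℂ) * ζ j * (starRingEnd ℂ) (ζ j) =
          ((F p * (ν j ^ 2 + τ j ^ 2) : ℝ) : ℂ) := fun j => by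
        rw [hζc]
        simp only [hζ]
        push_cast
        linear_combination (-((F p : ℂ) * (τ j : ℂ) ^ 2)) * Complex.I_sq
      rw [Finset.sum_congr rfl fun j _ => h6 j, ← Complex.ofReal_sum, ← Finset.mul_sum,
        Finset.sum_add_distrib, h1, h2]
      norm_num
      ring
    rw [h5] at h4
    refine h4.congr fun N => ?_
    rw [← Finset.mul_sum]
    have i1 : ∀ j, IntegrableOn (fun x => ((ρ x ^ 0 : ℝ) : ℂ) * ((F x : ℝ) : ℂ) *
        pd j (U N) x * (starRingEnd ℂ) (pd j (U N) x)) (Om ρ) := fun j =>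
      om_int hρ ((((Complex.continuous_ofReal.comp (hρ.sm.continuous.pow 0)).mul cF).mul
        (cU N j)).mul (cUc N j))
    rw [← integral_finsetSum _ fun j _ => i1 j, Complex.ofReal_mul, Complex.ofReal_inv]
    congr 1
    unfold eF
    refine Eq.trans ?_ integral_ofReal
    refine integral_congr_ae (Eventually.of_forall fun x => ?_)
    show _ = ((∑ j, F x * ‖pd j (U N) x‖ ^ 2 : ℝ) : ℂ)
    push_cast
    refine Finset.sum_congr rfl fun j _ => ?_
    have h6 : ((‖pd j (U N) x‖ : ℝ) : ℂ) ^ 2 = pd j (U N) x * (starRingEnd ℂ) (pd j (U N) x) := by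
      rw [Complex.mul_conj, Complex.normSq_eq_norm_sq]
      push_cast
      rfl
    rw [h6]
    ring
  have R2 := (Complex.continuous_re.tendsto _).comp R1
  simpa only [Function.comp_def, Complex.ofReal_re] using R2

/-- Frame at a boundary point. -/
theorem frame (hn : 3 ≤ n) (hρ : Dom ρ) {p : V n} (hp : ρ p = 0) :
    ∃ ν τ : V n, ∑ i, ν i ^ 2 = 1 ∧ ∑ i, τ i ^ 2 = 1 ∧ ∑ i, ν i * τ i = 0 ∧
      ∃ c > 0, ∀ i, pd i ρ p = c * ν i := by
  set g : V n := fun i => pd i ρ p with hg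
  set S0 : ℝ := ∑ i, g i ^ 2 with hS0
  have hS0n : 0 ≤ S0 := Finset.sum_nonneg fun i _ => sq_nonneg _
  have hS0p : 0 < S0 := by
    refine lt_of_le_of_ne hS0n fun h0 => hρ.nz p hp ?_
    have hz : ∀ i, g i = 0 := fun i =>
      pow_eq_zero_iff two_ne_zero |>.1 ((Finset.sum_eq_zero_iff_of_nonneg fun i _ =>
        sq_nonneg (g i)).1 h0.symm i (Finset.mem_univ i))
    refine ContinuousLinearMap.coe_injective (LinearMap.pi_ext' fun i => LinearMap.ext_ring ?_)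
    have h1 : (fderiv ℝ ρ p) (Pi.single i 1) = 0 := hz i
    simpa using h1
  set c : ℝ := √S0 with hc'
  have hc0 : 0 < c := Real.sqrt_pos.2 hS0p
  have hcc : c ^ 2 = S0 := Real.sq_sqrt hS0n
  set ν : V n := fun i => g i / c with hνd
  have hν1 : ∑ i, ν i ^ 2 = 1 := by
    have h : ∑ i, ν i ^ 2 = S0 / c ^ 2 := by
      rw [hS0, Finset.sum_div]
      exact Finset.sum_congr rfl fun i _ => by simp only [hνd]; ring
    rw [h, hcc, div_self hS0p.ne']
  have hνc : ∃ c > 0, ∀ i, pd i ρ p = c * ν i :=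
    ⟨c, hc0, fun i => by simp only [hνd, hg]; field_simp⟩
  obtain ⟨i, hi⟩ : ∃ i, ν i ≠ 0 := by
    by_contra h
    push Not at h
    have h1 : ∑ i, ν i ^ 2 = 0 := Finset.sum_eq_zero fun i _ => by rw [h i]; ring
    rw [h1] at hν1
    exact zero_ne_one hν1
  have : Nontrivial (Fin n) := Fin.nontrivial_iff_two_le.2 (by omega)
  obtain ⟨j, hji⟩ := exists_ne i
  set r : ℝ := √(ν i ^ 2 + ν j ^ 2) with hr
  have hr2 : 0 < ν i ^ 2 + ν j ^ 2 := by positivity
  have hr0 : 0 < r := Real.sqrt_pos.2 hr2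
  have hrr : r ^ 2 = ν i ^ 2 + ν j ^ 2 := Real.sq_sqrt hr2.le
  set τ : V n := fun k => (if k = i then ν j else 0) / r - (if k = j then ν i else 0) / r with hτ
  refine ⟨ν, τ, hν1, ?_, ?_, hνc⟩
  · have h1 : ∀ k, τ k ^ 2 = (if k = i then ν j ^ 2 / r ^ 2 else 0) +
        (if k = j then ν i ^ 2 / r ^ 2 else 0) := by
      intro k
      simp only [hτ]
      by_cases hk : k = i
      · have : k ≠ j := fun h => hji (h.symm.trans hk)
        simp only [hk, if_true, hji.symm, if_false]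
        ring
      · by_cases hk' : k = j
        · simp only [hk', if_true, hji, if_false]
          ring
        · simp [hk, hk']
    simp only [h1, Finset.sum_add_distrib, Finset.sum_ite_eq', Finset.mem_univ, if_true]
    rw [← add_div, hrr]
    rw [add_comm (ν j ^ 2)]
    exact div_self hr2.ne'
  · have h1 : ∀ k, ν k * τ k = (if k = i then ν i * ν j / r else 0) -
        (if k = j then ν i * ν j / r else 0) := by
      intro k
      simp only [hτ]
      by_cases hk : k = i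
      · have : k ≠ j := fun h => hji (h.symm.trans hk)
        simp only [hk, if_true, hji.symm, if_false]
        ring
      · by_cases hk' : k = j
        · simp only [hk', if_true, hji, if_false]
          ring
        · simp [hk, hk']
    simp only [h1, Finset.sum_sub_distrib, Finset.sum_ite_eq', Finset.mem_univ, if_true, sub_self]

/-- Row E_CZ. -/
theorem cz (hCON : BX.RowCON) : E.RowCZ := by
  intro n hn ρ hρ σ hσ B
  have hn0 : (0 : ℝ) < n := by
    have : 0 < n := by omega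
    exact_mod_cast this
  refine ⟨n * |B 0| + 1, 1 / n, by positivity, by positivity, ?_⟩
  intro ε hε hεn s ψ t N hSE p hp
  have hnε : n * ε ≤ 1 := by
    rw [le_div_iff₀ hn0] at hεn
    linarith
  obtain ⟨ν, τ, h1, h2, h3, hν⟩ := frame hn hρ hp
  have hup : σ p ≤ (1 + n * ε) * ψ p := by
    obtain ⟨U, Z, hU, hU0, hZ, hlim⟩ := conc hCON hρ hσ hp h1 h2 h3 hν
    have l1 := hlim σ hσ.1.continuous
    have l2 := (hlim ψ N.pψ.1.continuous).const_mul (1 + n * ε)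
    have h4 := le_of_tendsto_of_tendsto' l1 l2 fun M => by
      obtain ⟨u1, u2⟩ := sl_parts hρ hσ (hU M) (hU0 M)
      have e1 := real_up hρ hσ N hε hnε hSE u1
      have e2 := real_up hρ hσ N hε hnε hSE u2
      rw [eF_eq hρ hσ.1 (hU M), eF_eq hρ N.pψ.1 (hU M)]
      have hz : 0 ≤ (Z M)⁻¹ := (inv_pos.2 (hZ M)).le
      have e3 := mul_le_mul_of_nonneg_left (add_le_add e1 e2) hz
      refine e3.trans (le_of_eq ?_)
      ring
    linarith
  have hlo : (1 - n * ε) * ψ p ≤ σ p := by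
    obtain ⟨U, Z, hU, hU0, hZ, hlim⟩ := conc hCON hρ N.pψ hp h1 h2 h3 hν
    have l1 := hlim σ hσ.1.continuous
    have l2 := (hlim ψ N.pψ.1.continuous).const_mul (1 - n * ε)
    have h4 := le_of_tendsto_of_tendsto' l2 l1 fun M => by
      obtain ⟨u1, u2⟩ := sl_parts hρ N.pψ (hU M) (hU0 M)
      have e1 := real_lo hρ hσ N hε hnε hSE u1
      have e2 := real_lo hρ hσ N hε hnε hSE u2
      rw [eF_eq hρ hσ.1 (hU M), eF_eq hρ N.pψ.1 (hU M)]
      have hz : 0 ≤ (Z M)⁻¹ := (inv_pos.2 (hZ M)).le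
      have e3 := mul_le_mul_of_nonneg_left (add_le_add e1 e2) hz
      refine le_trans (le_of_eq ?_) e3
      ring
    linarith
  have hψ : ψ p ≤ |B 0| := by
    have h5 := N.bψ 0 le_rfl p
    rw [norm_iteratedFDeriv_zero] at h5
    exact (Real.le_norm_self _).trans (h5.trans (le_abs_self _))
  have h6 : n * ε * ψ p ≤ n * ε * |B 0| := mul_le_mul_of_nonneg_left hψ (by positivity)
  rw [abs_le]
  constructor <;> nlinarith

end Vale.Agent.P088.H925.EC
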